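import Vale.Agent.P256.Ext
import Vale.Agent.P256.Shadow

/-!
# P256: the quadratic extension theorem for hyperbolicity cones
-/

namespace Vale.Agent.Results.P256.Extension

open Vale.Agent.P256 MvPolynomial

/-- Let `q` be a nonconstant polynomial, hyperbolic with respect to `e`, with cone `K₁`, and let `B` be
a symmetric bilinear map (coefficient vectors `b j k`) with `B(h,h) ∈ K₁` for all `h`. Then
`p(x₀,y,h) = q(x₀ y - B(h,h))` is hyperbolic with respect to `(1,e,0)`, its cone is
`{x₀ ≥ 0, y ∈ K₁, x₀ y - B(h,h) ∈ K₁}`, and this cone is a spectrahedral shadow if and only if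
`K₁` is one. -/
theorem _root_.Vale.Agent.Results.P256.Extension.result (σ τ : Type) [Fintype σ] [Fintype τ]
    (q : MvPolynomial σ ℝ) (e : σ → ℝ) (hq : Hyperbolic q e) (hdeg : 0 < q.totalDegree)
    (b : τ → τ → σ → ℝ) (hsymm : ∀ j k, b j k = b k j)
    (hb : ∀ h : τ → ℝ, quad b h ∈ hcone q e) :
    Hyperbolic (qext q b) (edir (τ := τ) e) ∧
    hcone (qext q b) (edir (τ := τ) e) = {x : (Unit ⊕ σ ⊕ τ) → ℝ | 0 ≤ x (Sum.inl ()) ∧
      (fun i => x (Sum.inr (Sum.inl i))) ∈ hcone q e ∧
      (fun i => x (Sum.inl ()) * x (Sum.inr (Sum.inl i)) -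
        quad b (fun j => x (Sum.inr (Sum.inr j))) i) ∈ hcone q e} ∧
    (IsShadow (hcone (qext q b) (edir (τ := τ) e)) ↔ IsShadow (hcone q e)) := by
  obtain ⟨D, hD⟩ := hq.1
  have hne : q ≠ 0 := by
    rintro rfl
    have := hq.2.1
    simp at this
  have hpos : 0 < D := by
    rw [← hD.totalDegree hne]
    exact hdeg
  have H := hypFun hq hD hpos
  have hK := hcone_eq (e := e) hD
  have hcone' := hcone_qext hq hD hpos b hb
  have h0 : (0 : σ → ℝ) ∈ hcone q e := by rw [hK]; exact H.zero_mem
  refine ⟨hyperbolic_qext hq hD hpos b hb, hcone', ?_, ?_⟩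
  · intro hS
    have h1 := isShadow_slice _ hS
    have h2 : {y : σ → ℝ | (Sum.elim (fun _ => 1) (Sum.elim y (fun _ => 0)) :
        (Unit ⊕ σ ⊕ τ) → ℝ) ∈ hcone (qext q b) (edir (τ := τ) e)} = hcone q e := by
      ext y
      rw [Set.mem_ofPred_eq, hcone', Set.mem_ofPred_eq]
      have h3 : quad b (fun _ : τ => (0 : ℝ)) = 0 := by
        funext i
        simp [quad]
      simp only [Sum.elim_inl, Sum.elim_inr, one_mul, h3, Pi.zero_apply, sub_zero]
      constructor
      · rintro ⟨-, h4, -⟩
        exact h4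
      · intro h4
        exact ⟨zero_le_one, h4, h4⟩
    rw [h2] at h1
    exact h1
  · intro hS
    rw [hcone']
    exact isShadow_ext (hcone q e) h0
      (by intro x hx y hy; rw [hK] at hx hy ⊢; exact H.add_mem hx hy)
      (by intro c hc x hx; rw [hK] at hx ⊢; exact H.smul_mem hc hx)
      (by
        intro a ha x hx
        rw [hK] at ha ⊢
        apply H.closed a ha x
        intro ε hε
        have := hx ε hε
        rwa [hK] at this)
      b hsymm hb hS

end Vale.Agent.Results.P256.Extension
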